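import Vale.Agent.P240.R2.H402.Comb
import Vale.Agent.P240.R2.AS.Stmts2

/-!
P240, Aschbacher-Smith unitary conjecture: `StmtA2` (and `StmtM4c`), by helper402.
-/

set_option autoImplicit false
set_option linter.all false

namespace Vale.Agent.P240.R2.H402

open Finset Matrix
open Vale.Agent.P240.R2.AS
open scoped Classical

universe u

noncomputable section

variable {K : Type u} [Field K] [Fintype K] [StarRing K] {m : ℕ}

/-- block matrices with a last block of size one -/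
def RR (A : Matrix (Fin m) (Fin m) K) (c : K) : Matrix (Fin (m + 1)) (Fin (m + 1)) K :=
  Matrix.reindex finSumFinEquiv finSumFinEquiv
    (Matrix.fromBlocks A 0 0 (Matrix.of fun _ _ : Fin 1 => c))

/-- the embedding of `K ^ m` in `K ^ (m + 1)` -/
def Jm (K : Type u) [Field K] (m : ℕ) : Matrix (Fin (m + 1)) (Fin m) K :=
  Matrix.of fun i k => Matrix.fromRows (1 : Matrix (Fin m) (Fin m) K) (0 : Matrix (Fin 1) (Fin m) K)
    (finSumFinEquiv.symm i) k

lemma Jm_up (A : Matrix (Fin m) (Fin m) K) : up (Jm K m) A = RR A 0 := by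
  have h : (Matrix.fromRows (1 : Matrix (Fin m) (Fin m) K) (0 : Matrix (Fin 1) (Fin m) K)) * A *
      (Matrix.fromRows (1 : Matrix (Fin m) (Fin m) K) (0 : Matrix (Fin 1) (Fin m) K))ᴴ =
      Matrix.fromBlocks A 0 0 (Matrix.of fun _ _ : Fin 1 => (0 : K)) := by
    rw [conjTranspose_fromRows_eq_fromCols_conjTranspose, fromRows_mul, fromRows_mul_fromCols]
    congr 1 <;> simp
    rfl
  ext i j
  have h2 := congrFun (congrFun h (finSumFinEquiv.symm i)) (finSumFinEquiv.symm j)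
  show up (Jm K m) A i j = Matrix.fromBlocks A 0 0 (Matrix.of fun _ _ : Fin 1 => (0 : K))
    (finSumFinEquiv.symm i) (finSumFinEquiv.symm j)
  rw [← h2]
  simp only [up, Matrix.mul_apply, Jm, Matrix.of_apply, Matrix.conjTranspose_apply]

lemma Jm_iso : (Jm K m)ᴴ * Jm K m = 1 := by
  have h : (Matrix.fromRows (1 : Matrix (Fin m) (Fin m) K) (0 : Matrix (Fin 1) (Fin m) K))ᴴ *
      (Matrix.fromRows (1 : Matrix (Fin m) (Fin m) K) (0 : Matrix (Fin 1) (Fin m) K)) = 1 := by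
    rw [conjTranspose_fromRows_eq_fromCols_conjTranspose, fromCols_mul_fromRows]
    simp
  ext i j
  rw [← h]
  simp only [Matrix.mul_apply, Jm, Matrix.of_apply, Matrix.conjTranspose_apply]
  exact Equiv.sum_comp finSumFinEquiv.symm (fun x =>
    star (Matrix.fromRows (1 : Matrix (Fin m) (Fin m) K) (0 : Matrix (Fin 1) (Fin m) K) x i) *
    Matrix.fromRows (1 : Matrix (Fin m) (Fin m) K) (0 : Matrix (Fin 1) (Fin m) K) x j)

lemma RR_one : RR (1 : Matrix (Fin m) (Fin m) K) 1 = 1 := by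
  have : (Matrix.of fun _ _ : Fin 1 => (1 : K)) = 1 := by
    ext i j
    rw [Subsingleton.elim i j, one_apply_eq]; rfl
  rw [RR, this, Matrix.fromBlocks_one, Matrix.reindex_apply, Matrix.submatrix_one_equiv]

lemma RR_add (A B : Matrix (Fin m) (Fin m) K) (c d : K) : RR (A + B) (c + d) = RR A c + RR B d := by
  have : (Matrix.of fun _ _ : Fin 1 => (c + d : K)) =
      (Matrix.of fun _ _ : Fin 1 => c) + (Matrix.of fun _ _ : Fin 1 => d) := by
    ext i j; rfl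
  have h2 : Matrix.fromBlocks (A + B) 0 0 (Matrix.of fun _ _ : Fin 1 => (c + d : K)) =
      Matrix.fromBlocks A 0 0 (Matrix.of fun _ _ : Fin 1 => c) +
      Matrix.fromBlocks B 0 0 (Matrix.of fun _ _ : Fin 1 => d) := by
    rw [Matrix.fromBlocks_add, this]; simp
  rw [RR, h2]; rfl

lemma RR_smul (A : Matrix (Fin m) (Fin m) K) (c d : K) : RR (d • A) (d * c) = d • RR A c := by
  have h2 : Matrix.fromBlocks (d • A) 0 0 (Matrix.of fun _ _ : Fin 1 => (d * c : K)) =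
      d • Matrix.fromBlocks A 0 0 (Matrix.of fun _ _ : Fin 1 => c) := by
    rw [Matrix.fromBlocks_smul]
    congr 1 <;> simp
  rw [RR, h2]; rfl

lemma Jm_qp : qp (Jm K m) = RR 0 1 := by
  have h1 : (1 : Matrix (Fin (m + 1)) (Fin (m + 1)) K) - qp (Jm K m) = RR 1 0 := by
    rw [← Jm_up, up_one]
  have h2 : qp (Jm K m) = RR 1 1 - RR 1 0 := by rw [RR_one, ← h1]; abel
  rw [h2, sub_eq_iff_eq_add, ← RR_add]; simp

lemma RR_val (A : Matrix (Fin m) (Fin m) K) (c : K) :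
    RR (1 + A) c = 1 + up (Jm K m) A + (c - 1) • qp (Jm K m) := by
  rw [Jm_up, Jm_qp, ← RR_smul, smul_zero, mul_one, ← RR_one, ← RR_add, ← RR_add]
  simp

lemma det_letter (ζ : K) (P : Ln K m) : (1 + (ζ - 1) • P.1).det = ζ := by
  obtain ⟨P, x, hx, rfl⟩ := P
  show (1 + (ζ - 1) • vecMulVec x (star x)).det = ζ
  have h1 : (ζ - 1) • vecMulVec x (star x) =
      replicateCol Unit ((ζ - 1) • x) * replicateRow Unit (star x) := by
    rw [← vecMulVec_eq, smul_vecMulVec]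
  rw [h1, det_one_add_replicateCol_mul_replicateRow, dotProduct_smul, hx]
  simp

lemma det_word (ζ : K) {w : List (Ln K m)} (hw : Orth w) :
    (1 + (ζ - 1) • sm w).det = ζ ^ w.length := by
  induction w with
  | nil => simp [sm_nil]
  | cons a w ih =>
    have h1 : a.1 * sm w = 0 := mul_sm (List.pairwise_cons.1 hw).1
    have h2 : 1 + (ζ - 1) • sm (a :: w) = (1 + (ζ - 1) • a.1) * (1 + (ζ - 1) • sm w) := by
      rw [sm_cons]
      simp only [mul_add, add_mul, mul_one, one_mul, smul_mul_smul_comm, h1, smul_zero, add_zero]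
      module
    rw [h2, det_mul, det_letter, ih (List.pairwise_cons.1 hw).2, List.length_cons, pow_succ, mul_comm]

lemma det_RR (A : Matrix (Fin m) (Fin m) K) (c : K) : (RR A c).det = A.det * c := by
  rw [RR, det_reindex_self, det_fromBlocks_zero₂₁]
  simp

lemma eW'_eq {ζ : K} (hζ : ζ * star ζ = 1) {w : List (Ln K m)} (hw : Orth w) :
    eW' ζ w = eJ ζ ζ⁻¹ (Jm K m) w := by
  have hζ0 : ζ ≠ 0 := left_ne_zero_of_mul_eq_one hζ
  have hη : ζ⁻¹ * star ζ⁻¹ = 1 := by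
    rw [star_inv₀, ← _root_.mul_inv_rev, mul_comm (star ζ) ζ, hζ, inv_one]
  have hval : RR (1 + (ζ - 1) • sm w) (ζ⁻¹ ^ w.length) = (EJ ζ ζ⁻¹ (Jm K m) w).1 := by
    rw [EJ_val Jm_iso hζ hη hw, RR_val]
    congr 3
    simp [up]
  have hmem : RR (1 + (ζ - 1) • sm w) (ζ⁻¹ ^ w.length) ∈ Matrix.unitaryGroup (Fin (m + 1)) K := by
    rw [hval]; exact (EJ ζ ζ⁻¹ (Jm K m) w).2
  unfold eW'
  rw [dif_pos (show (Matrix.reindex finSumFinEquiv finSumFinEquiv
      (Matrix.fromBlocks (1 + (ζ - 1) • sm w) 0 0 (Matrix.of fun _ _ : Fin 1 => (ζ⁻¹) ^ w.length))) ∈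
      Matrix.unitaryGroup (Fin (m + 1)) K from hmem)]
  exact congrArg QuotientGroup.mk (Subtype.ext hval)

theorem stmtA2 : StmtA2.{u} := by
  intro K _ _ _ q hq hK hs p _ ζ hζp hζ1 hζ m hm hpm
  have hp : p.Prime := Fact.out
  have hζ0 : ζ ≠ 0 := left_ne_zero_of_mul_eq_one hζ
  have hη : ζ⁻¹ * star ζ⁻¹ = 1 := by
    rw [star_inv₀, ← _root_.mul_inv_rev, mul_comm (star ζ) ζ, hζ, inv_one]
  have hηp : ζ⁻¹ ^ p = 1 := by rw [inv_pow, hζp, inv_one]
  have hfull : (ζ⁻¹) ^ m = ζ := by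
    obtain ⟨k, hk⟩ := hpm
    have h1 : (ζ⁻¹) ^ (m + 1) = 1 := by rw [hk, pow_mul, hηp, one_pow]
    rw [pow_succ] at h1
    have h2 : (ζ⁻¹) ^ m * ζ⁻¹ * ζ = ζ := by rw [h1, one_mul]
    rwa [mul_assoc, inv_mul_cancel₀ hζ0, mul_one] at h2
  refine ⟨comb_gen (J := Jm K m) (η := ζ⁻¹) Jm_iso hζ hη hζ1 (fun w hw => eW'_eq hζ hw) hζp hηp hm
    (by rw [hfull]), ?_⟩
  intro w hw
  rw [eW'_eq hζ hw]
  refine ⟨EJ ζ ζ⁻¹ (Jm K m) w, ?_, rfl⟩
  show (EJ ζ ζ⁻¹ (Jm K m) w) ∈ SU K (m + 1)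
  have h1 : (EJ ζ ζ⁻¹ (Jm K m) w).1.det = 1 := by
    have hval : RR (1 + (ζ - 1) • sm w) (ζ⁻¹ ^ w.length) = (EJ ζ ζ⁻¹ (Jm K m) w).1 := by
      rw [EJ_val Jm_iso hζ hη hw, RR_val]
      congr 3
      simp [up]
    rw [← hval, det_RR, det_word ζ hw, ← mul_pow, mul_inv_cancel₀ hζ0, one_pow]
  exact h1

theorem stmtM4c : StmtM4c.{u} := by
  intro K _ _ _ q hq hK hs p _ ζ hζp hζ1 hζ n hn
  have hJ : (1 : Matrix (Fin n) (Fin n) K)ᴴ * 1 = 1 := by simp
  have hqp : qp (1 : Matrix (Fin n) (Fin n) K) = 0 := by simp [qp]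
  refine comb_gen (J := (1 : Matrix (Fin n) (Fin n) K)) (η := 1) hJ hζ (by simp) hζ1 ?_ hζp
    (by simp) hn (by rw [hqp, smul_zero, smul_zero])
  intro w hw
  refine congrArg QuotientGroup.mk (Subtype.ext ?_)
  rw [EJ_val hJ hζ (by simp) hw, hqp, smul_zero, add_zero, eU_val (sm_star w) (sm_idem hw) hζ]
  simp [up]

end

end Vale.Agent.P240.R2.H402
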