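import Vale.Agent.P240.R2.H402.Cen

/-!
P240, Aschbacher-Smith unitary conjecture, row A2 (helper402): the group generated by the classes
`eJ ζ η J u`, `u` an initial segment of a frame, has order `p ^ (m - 1)`.
-/

set_option autoImplicit false
set_option linter.all false

namespace Vale.Agent.P240.R2.H402

open Finset Matrix
open Vale.Agent.P240.R2.AS
open scoped Classical

universe u

noncomputable section

variable {K : Type u} [Field K] [Fintype K] [StarRing K] {m N : ℕ}

section D

variable {p : ℕ} [Fact p.Prime] {ζ η : K} (hζp : ζ ^ p = 1) (hηp : η ^ p = 1)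
  (J : Matrix (Fin N) (Fin m) K) (x : Fin m → Ln K m)

/-- the matrix with the eigenvalues `ζ ^ a i` on the line `x i`, `η ^ Σ a i` on the complement -/
def Dm (a : Fin m → ZMod p) : Matrix (Fin N) (Fin N) K :=
  ∑ i, AddChar.zmodChar p hζp (a i) • up J (x i).1 + AddChar.zmodChar p hηp (∑ i, a i) • qp J

variable {J x} (hJ : Jᴴ * J = 1) (hx : ∀ i j, i ≠ j → (x i).1 * (x j).1 = 0)
  (hx1 : ∑ i, (x i).1 = 1)

include hJ hx in
lemma Dm_up (a : Fin m → ZMod p) (i : Fin m) : Dm hζp hηp J x a * up J (x i).1 =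
    AddChar.zmodChar p hζp (a i) • up J (x i).1 := by
  rw [Dm, add_mul, Finset.sum_mul, smul_mul_assoc, qp_up hJ, smul_zero, add_zero,
    Finset.sum_eq_single i]
  · rw [smul_mul_assoc, up_mul hJ, ln_idem]
  · intro j _ hj
    rw [smul_mul_assoc, up_mul hJ, hx j i hj, up_zero, smul_zero]
  · simp

include hJ hx in
lemma Dm_mul (a b : Fin m → ZMod p) :
    Dm hζp hηp J x (a + b) = Dm hζp hηp J x a * Dm hζp hηp J x b := by
  have h1 : ∀ i, Dm hζp hηp J x a * (AddChar.zmodChar p hζp (b i) • up J (x i).1) =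
      AddChar.zmodChar p hζp ((a + b) i) • up J (x i).1 := by
    intro i
    rw [mul_smul_comm, Dm_up hζp hηp hJ hx, smul_smul, Pi.add_apply, AddChar.map_add_eq_mul, mul_comm]
  have h2 : Dm hζp hηp J x a * qp J = AddChar.zmodChar p hηp (∑ i, a i) • qp J := by
    rw [Dm, add_mul, Finset.sum_mul, smul_mul_assoc, qp_idem hJ]
    have : ∀ i, (AddChar.zmodChar p hζp (a i) • up J (x i).1) * qp J = 0 := by
      intro i
      rw [smul_mul_assoc, up_qp hJ, smul_zero]
    simp [this]
  conv_rhs => rw [Dm.eq_1 hζp hηp J x b]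
  rw [mul_add, Finset.mul_sum, Finset.sum_congr rfl (fun i _ => h1 i), mul_smul_comm, h2, smul_smul, Dm]
  congr 2
  rw [← AddChar.map_add_eq_mul, add_comm (∑ i, b i), ← Finset.sum_add_distrib]
  rfl

include hJ hx1 in
lemma sum_up : ∑ i, up J (x i).1 + qp J = 1 := by
  rw [← up_sum, hx1, up_one]; abel

include hJ hx1 in
lemma Dm_zero : Dm hζp hηp J x 0 = 1 := by
  rw [Dm]
  simp only [Pi.zero_apply, AddChar.map_zero_eq_one, one_smul, Finset.sum_const_zero]
  exact sum_up hJ hx1

variable (hζ : ζ * star ζ = 1) (hη : η * star η = 1)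

include hJ hx hx1 hζ hη in
lemma Dm_unitary (a : Fin m → ZMod p) : Dm hζp hηp J x a ∈ Matrix.unitaryGroup (Fin N) K := by
  rw [Matrix.mem_unitaryGroup_iff]
  have h1 : star (Dm hζp hηp J x a) = Dm hζp hηp J x (-a) := by
    have key : ∀ {z : K} (hzp : z ^ p = 1) (hz : z * star z = 1) (c : ZMod p),
        star (AddChar.zmodChar p hzp c) = AddChar.zmodChar p hzp (-c) := by
      intro z hzp hz c
      have h2 : AddChar.zmodChar p hzp c * star (AddChar.zmodChar p hzp c) = 1 := by
        rw [AddChar.zmodChar_apply]; exact pow_star hz _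
      have h3 : AddChar.zmodChar p hzp c * AddChar.zmodChar p hzp (-c) = 1 := by
        rw [← AddChar.map_add_eq_mul, add_neg_cancel, AddChar.map_zero_eq_one]
      have h4 : AddChar.zmodChar p hzp c ≠ 0 := left_ne_zero_of_mul_eq_one h3
      exact mul_left_cancel₀ h4 (h2.trans h3.symm)
    rw [Dm, Dm, star_add, star_sum, star_smul, qp_star, key hηp hη]
    congr 1
    · refine Finset.sum_congr rfl (fun i _ => ?_)
      rw [star_smul, key hζp hζ, up_star, ln_star]
      rfl
    · congr 2
      simp [Finset.sum_neg_distrib]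
  rw [h1, ← Dm_mul hζp hηp hJ hx, add_neg_cancel, Dm_zero hζp hηp hJ hx1]

/-- the homomorphism -/
def Ph : Multiplicative (Fin m → ZMod p) →* PGU K N where
  toFun a := QuotientGroup.mk ⟨Dm hζp hηp J x a.toAdd, Dm_unitary hζp hηp hJ hx hx1 hζ hη _⟩
  map_one' := by
    have : (⟨Dm hζp hηp J x 0, Dm_unitary hζp hηp hJ hx hx1 hζ hη _⟩ : GU K N) = 1 :=
      Subtype.ext (Dm_zero hζp hηp hJ hx1)
    exact congrArg QuotientGroup.mk this
  map_mul' a b := by
    rw [← QuotientGroup.mk_mul]
    refine congrArg QuotientGroup.mk (Subtype.ext ?_)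
    exact Dm_mul hζp hηp hJ hx _ _

lemma char_inj {z : K} (hzp : z ^ p = 1) (hz1 : z ≠ 1) {a b : ZMod p}
    (h : AddChar.zmodChar p hzp a = AddChar.zmodChar p hzp b) : a = b := by
  have hp : p.Prime := Fact.out
  have h1 : AddChar.zmodChar p hzp (a - b) = 1 := by
    have : AddChar.zmodChar p hzp (a - b) * AddChar.zmodChar p hzp b = AddChar.zmodChar p hzp b := by
      rw [← AddChar.map_add_eq_mul, sub_add_cancel, h]
    have h0 : AddChar.zmodChar p hzp b ≠ 0 := by
      rw [AddChar.zmodChar_apply]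
      refine pow_ne_zero _ ?_
      rintro rfl
      rw [zero_pow hp.ne_zero] at hzp
      exact zero_ne_one hzp
    exact mul_right_cancel₀ h0 (by rw [this, one_mul])
  rw [AddChar.zmodChar_apply] at h1
  have h2 : orderOf z = p := by
    exact orderOf_eq_prime hzp hz1
  have h3 : p ∣ (a - b).val := by
    have h5 := orderOf_dvd_of_pow_eq_one h1
    rwa [h2] at h5
  have h4 : (a - b).val = 0 := Nat.eq_zero_of_dvd_of_lt h3 (ZMod.val_lt _)
  exact sub_eq_zero.1 ((ZMod.val_eq_zero _).1 h4)

variable (hζ1 : ζ ≠ 1)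

include hζ1 in
/-- the kernel is the set of constants -/
lemma card_ker (hm : 1 ≤ m) (hfull : η ^ m • qp J = ζ • qp J) :
    Nat.card (Ph hζp hηp hJ hx hx1 hζ hη).ker = p := by
  let dg : ZMod p → (Ph hζp hηp hJ hx hx1 hζ hη).ker := fun c =>
    ⟨Multiplicative.ofAdd (fun _ => c), by
      rw [MonoidHom.mem_ker]
      refine (QuotientGroup.eq_one_iff _).2 (scalar_center (t := AddChar.zmodChar p hζp c) ?_)
      show Dm hζp hηp J x (fun _ => c) = _
      rw [Dm, ← Finset.smul_sum]
      have h1 : AddChar.zmodChar p hηp (∑ i : Fin m, c) • qp J =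
          AddChar.zmodChar p hζp c • qp J := by
        rw [Finset.sum_const, Finset.card_univ, Fintype.card_fin, AddChar.map_nsmul_eq_pow,
          AddChar.zmodChar_apply, AddChar.zmodChar_apply]
        have h3 : ∀ k : ℕ, (η ^ k) ^ m • qp J = ζ ^ k • qp J := by
          intro k
          induction k with
          | zero => simp
          | succ k ih =>
            rw [pow_succ, mul_pow, mul_smul, hfull, smul_comm, ih, smul_smul, pow_succ, mul_comm]
        exact h3 _
      rw [h1, ← smul_add, sum_up hJ hx1]⟩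
  have hinj : Function.Injective dg := by
    intro c d h
    have h1 := congrArg (fun a => (Multiplicative.toAdd a.1) ⟨0, hm⟩) h
    exact h1
  have hsurj : Function.Surjective dg := by
    rintro ⟨a, ha⟩
    rw [MonoidHom.mem_ker] at ha
    have h1 : (QuotientGroup.mk (⟨Dm hζp hηp J x a.toAdd,
        Dm_unitary hζp hηp hJ hx hx1 hζ hη _⟩ : GU K N) : PGU K N) = QuotientGroup.mk 1 := ha
    obtain ⟨t, ht⟩ := mk_eq hζ hζ1 h1
    have ht' : Dm hζp hηp J x a.toAdd = t • 1 := ht
    have h2 : ∀ i, AddChar.zmodChar p hζp (a.toAdd i) = t := by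
      intro i
      have h3 := Dm_up hζp hηp hJ hx a.toAdd i
      rw [ht', smul_mul_assoc, one_mul] at h3
      have h4 : (AddChar.zmodChar p hζp (a.toAdd i) - t) • up J (x i).1 = 0 := by
        rw [sub_smul, ← h3, sub_self]
      rcases smul_eq_zero.1 h4 with h5 | h5
      · exact sub_eq_zero.1 h5
      · exact absurd (up_inj hJ h5) (ln_ne _)
    refine ⟨a.toAdd ⟨0, hm⟩, ?_⟩
    apply Subtype.ext
    show Multiplicative.ofAdd _ = a
    rw [← ofAdd_toAdd a]
    congr 1
    funext i
    exact char_inj hζp hζ1 ((h2 _).trans (h2 i).symm)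
  rw [← Nat.card_congr (Equiv.ofBijective dg ⟨hinj, hsurj⟩), Nat.card_zmod]

include hζ1 in
lemma card_range (hm : 1 ≤ m) (hfull : η ^ m • qp J = ζ • qp J) :
    Nat.card (Ph hζp hηp hJ hx hx1 hζ hη).range = p ^ (m - 1) := by
  have hp : p.Prime := Fact.out
  have h1 := Subgroup.card_mul_index (Ph hζp hηp hJ hx hx1 hζ hη).ker
  rw [Subgroup.index_ker, card_ker hζp hηp hJ hx hx1 hζ hη hζ1 hm hfull] at h1
  have h2 : Nat.card (Multiplicative (Fin m → ZMod p)) = p ^ m := by
    rw [Nat.card_congr Multiplicative.toAdd, Nat.card_pi]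
    simp
  rw [h2] at h1
  obtain ⟨k, rfl⟩ : ∃ k, m = k + 1 := ⟨m - 1, by omega⟩
  rw [pow_succ, mul_comm] at h1
  simpa using Nat.eq_of_mul_eq_mul_right hp.pos h1

end D

end

end Vale.Agent.P240.R2.H402
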