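import Vale.Agent.P240.R2.H402.Emb

/-!
P240, Aschbacher-Smith unitary conjecture, row A2 (helper402): the centre of the unitary group is
scalar; classes of the elements `EJ`.
-/

set_option autoImplicit false
set_option linter.all false

namespace Vale.Agent.P240.R2.H402

open Finset Matrix
open Vale.Agent.P240.R2.AS
open scoped Classical

universe u

variable {K : Type u} [Field K] [Fintype K] [StarRing K] {m N : ℕ}

lemma perm_unitary (σ : Equiv.Perm (Fin N)) :
    ((1 : Matrix (Fin N) (Fin N) K).submatrix σ id) ∈ Matrix.unitaryGroup (Fin N) K := by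
  rw [Matrix.mem_unitaryGroup_iff]
  ext a b
  rw [Matrix.mul_apply]
  simp only [submatrix_apply, id_eq, star_apply, one_apply, ite_mul, one_mul, zero_mul,
    Finset.sum_ite_eq, Finset.mem_univ, if_true]
  by_cases h : a = b
  · subst h; simp
  · have : ¬ (σ b = σ a) := fun h' => h (σ.injective h'.symm)
    simp [this, h]

lemma center_scalar {ζ : K} (hζ : ζ * star ζ = 1) (hζ1 : ζ ≠ 1) {z : GU K N}
    (hz : z ∈ Subgroup.center (GU K N)) : ∃ t : K, z.1 = t • (1 : Matrix (Fin N) (Fin N) K) := by
  have hc : ∀ g : GU K N, g.1 * z.1 = z.1 * g.1 := fun g =>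
    congrArg Subtype.val (Subgroup.mem_center_iff.1 hz g)
  have hoff : ∀ i j : Fin N, j ≠ i → z.1 j i = 0 := by
    intro i j hij
    let S : Matrix (Fin N) (Fin N) K := Matrix.single i i 1
    have hS1 : star S = S := by
      rw [star_eq_conjTranspose]
      simp [S]
    have hS2 : S * S = S := by simp [S]
    have h1 := hc (eU ζ S)
    rw [eU_val hS1 hS2 hζ] at h1
    have h2 : (ζ - 1) • (S * z.1) = (ζ - 1) • (z.1 * S) := by
      have h3 : z.1 + (ζ - 1) • (S * z.1) = z.1 + (ζ - 1) • (z.1 * S) := by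
        simpa [add_mul, mul_add] using h1
      exact add_left_cancel h3
    have h4 : S * z.1 = z.1 * S := by
      have h5 := congrArg (fun A => (ζ - 1)⁻¹ • A) h2
      simpa [smul_smul, inv_mul_cancel₀ (sub_ne_zero.2 hζ1)] using h5
    have h6 := congrFun (congrFun h4 j) i
    have h7 : (S * z.1) j i = 0 := by
      rw [Matrix.mul_apply]
      refine Finset.sum_eq_zero (fun k _ => ?_)
      have : S j k = 0 := by simp [S, Matrix.single, hij.symm]
      rw [this, zero_mul]
    have h8 : (z.1 * S) j i = z.1 j i := by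
      rw [Matrix.mul_apply, Finset.sum_eq_single i]
      · simp [S, Matrix.single]
      · intro k _ hk
        have : S k i = 0 := by simp [S, Matrix.single, hk.symm]
        rw [this, mul_zero]
      · simp
    rw [← h8, ← h6, h7]
  have hdiag : ∀ i j : Fin N, z.1 i i = z.1 j j := by
    intro i j
    let σ := Equiv.swap i j
    have h1 := hc ⟨_, perm_unitary σ⟩
    have h2 := congrFun (congrFun h1 i) j
    have h3 : (((1 : Matrix (Fin N) (Fin N) K).submatrix σ id) * z.1) i j = z.1 j j := by
      rw [Matrix.mul_apply]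
      simp [one_apply, σ]
    have h4 : (z.1 * ((1 : Matrix (Fin N) (Fin N) K).submatrix σ id)) i j = z.1 i i := by
      rw [Matrix.mul_apply, Finset.sum_eq_single i]
      · simp [σ, Equiv.swap_apply_left, one_apply]
      · intro k _ hk
        have : ¬ (σ k = j) := fun h => hk (by
          have := congrArg σ h
          simpa [σ] using this)
        simp [one_apply, this]
      · simp
    rw [← h3, ← h4]
    exact h2.symm
  rcases Nat.eq_zero_or_pos N with hN | hN
  · subst hN
    exact ⟨1, by ext i; exact i.elim0⟩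
  · refine ⟨z.1 ⟨0, hN⟩ ⟨0, hN⟩, ?_⟩
    ext i j
    by_cases h : i = j
    · subst h
      simp [hdiag i ⟨0, hN⟩]
    · simp [hoff j i h, one_apply_ne h]

lemma scalar_center {z : GU K N} {t : K} (h : z.1 = t • (1 : Matrix (Fin N) (Fin N) K)) :
    z ∈ Subgroup.center (GU K N) := by
  rw [Subgroup.mem_center_iff]
  intro g
  apply Subtype.ext
  show g.1 * z.1 = z.1 * g.1
  rw [h]; simp

/-- equality of classes -/
lemma mk_eq {ζ : K} (hζ : ζ * star ζ = 1) (hζ1 : ζ ≠ 1) {X Y : GU K N}
    (h : (QuotientGroup.mk X : PGU K N) = QuotientGroup.mk Y) : ∃ t : K, X.1 = t • Y.1 := by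
  have h1 : Y⁻¹ * X ∈ Subgroup.center (GU K N) := QuotientGroup.eq.1 h.symm
  obtain ⟨t, ht⟩ := center_scalar hζ hζ1 h1
  refine ⟨t, ?_⟩
  have h2 : X = Y * (Y⁻¹ * X) := by group
  have h3 : X.1 = Y.1 * (Y⁻¹ * X).1 := congrArg Subtype.val h2
  rw [h3, ht]; simp

end Vale.Agent.P240.R2.H402
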