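import Vale.Agent.P240.R2.H402.Card

/-!
P240, Aschbacher-Smith unitary conjecture, row A2 (helper402): the hypotheses `Comb` for the elements
`eJ ζ η J w`.
-/

set_option autoImplicit false
set_option linter.all false

namespace Vale.Agent.P240.R2.H402

open Finset Matrix
open Vale.Agent.P240.R2.AS
open scoped Classical

universe u

noncomputable section

variable {K : Type u} [Field K] [Fintype K] [StarRing K] {m N : ℕ}

lemma ite_succ {M : Type*} [AddCommMonoid M] (f : Fin m → M) (k : ℕ) (hk : k < m) :
    ∑ i : Fin m, (if i.val < k + 1 then f i else 0) =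
      ∑ i : Fin m, (if i.val < k then f i else 0) + f ⟨k, hk⟩ := by
  have h1 : ∀ i : Fin m, (if i.val < k + 1 then f i else 0) =
      (if i.val < k then f i else 0) + (if i = ⟨k, hk⟩ then f i else 0) := by
    intro i
    by_cases h : i = ⟨k, hk⟩
    · subst h; simp
    · have h2 : i.val ≠ k := fun h' => h (Fin.ext h')
      by_cases h3 : i.val < k
      · have : i.val < k + 1 := by omega
        simp [h, h3, this]
      · have : ¬ i.val < k + 1 := by omega
        simp [h, h3, this]
  rw [Finset.sum_congr rfl (fun i _ => h1 i), Finset.sum_add_distrib]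
  simp

/-- the letters of a frame -/
def lt {w : List (Ln K m)} (hl : w.length = m) (i : Fin m) : Ln K m := w.get (Fin.cast hl.symm i)

lemma lt_orth {w : List (Ln K m)} (hl : w.length = m) (ho : Orth w) (i j : Fin m) (hij : i ≠ j) :
    (lt hl i).1 * (lt hl j).1 = 0 := by
  rcases lt_or_gt_of_ne hij with hlt | hlt
  · exact (List.pairwise_iff_get.1 ho) _ _ (by simpa using hlt)
  · exact ln_orth_symm ((List.pairwise_iff_get.1 ho) _ _ (by simpa using hlt))

lemma take_succ' {w : List (Ln K m)} (hl : w.length = m) (k : ℕ) (hk : k < m) :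
    w.take (k + 1) = w.take k ++ [lt hl ⟨k, hk⟩] := by
  have hk' : k < w.length := by omega
  rw [List.take_succ_eq_append_getElem hk']
  rfl

lemma sm_take {w : List (Ln K m)} (hl : w.length = m) (k : ℕ) (hk : k ≤ m) :
    sm (w.take k) = ∑ i : Fin m, (if i.val < k then (lt hl i).1 else 0) := by
  induction k with
  | zero => simp [sm_nil]
  | succ k ih =>
    rw [take_succ' hl k hk, sm_app, ih (by omega), sm_cons, sm_nil, add_zero,
      ite_succ (fun i => (lt hl i).1) k hk]

lemma sum_lt {w : List (Ln K m)} (hw : w ∈ Fr K m) (hl : w.length = m) : ∑ i, (lt hl i).1 = 1 := by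
  rw [← sm_full hw]
  have h := sm_take hl m le_rfl
  rw [List.take_of_length_le hl.le] at h
  rw [h]
  refine Finset.sum_congr rfl (fun i _ => ?_)
  rw [if_pos i.2]

section

variable {p : ℕ} [Fact p.Prime] {ζ η : K} (hζp : ζ ^ p = 1) (hηp : η ^ p = 1)
  {J : Matrix (Fin N) (Fin m) K} (hJ : Jᴴ * J = 1) (hζ : ζ * star ζ = 1) (hη : η * star η = 1)
  (hζ1 : ζ ≠ 1)

lemma cast_sum (k : ℕ) (hk : k ≤ m) :
    ∑ i : Fin m, (if i.val < k then (1 : ZMod p) else 0) = (k : ZMod p) := by
  induction k with
  | zero => simp
  | succ k ih => rw [ite_succ (fun _ => (1 : ZMod p)) k hk, ih (by omega)]; push_cast; rfl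

lemma eJ_take {w : List (Ln K m)} (hw : w ∈ Fr K m) (hl : w.length = m) (ho : Orth w) (k : ℕ)
    (hk : k ≤ m) : eJ ζ η J (w.take k) =
      Ph hζp hηp hJ (lt_orth hl ho) (sum_lt hw hl) hζ hη
        (Multiplicative.ofAdd (fun i : Fin m => if i.val < k then (1 : ZMod p) else 0)) := by
  have hp : p.Prime := Fact.out
  haveI : Fact (1 < p) := ⟨hp.one_lt⟩
  refine congrArg QuotientGroup.mk (Subtype.ext ?_)
  have hot : Orth (w.take k) := ho.sublist (List.take_sublist k w)
  rw [EJ_val hJ hζ hη hot, sm_take hl k hk, List.length_take, hl, min_eq_left hk]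
  show _ = Dm hζp hηp J (lt hl) (fun i : Fin m => if i.val < k then (1 : ZMod p) else 0)
  rw [Dm, cast_sum k hk, AddChar.zmodChar_apply', up_sum]
  have h1 : ∀ i : Fin m, AddChar.zmodChar p hζp (if i.val < k then (1 : ZMod p) else 0) •
      up J (lt hl i).1 = up J (lt hl i).1 +
        (ζ - 1) • up J (if i.val < k then (lt hl i).1 else 0) := by
    intro i
    by_cases h : i.val < k
    · rw [if_pos h, if_pos h, AddChar.zmodChar_apply, ZMod.val_one, pow_one]
      module
    · rw [if_neg h, if_neg h, AddChar.map_zero_eq_one, up_zero]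
      simp
  rw [Finset.sum_congr rfl (fun i _ => h1 i), Finset.sum_add_distrib, ← Finset.smul_sum]
  have h2 := sum_up (x := lt hl) hJ (sum_lt hw hl)
  rw [← h2]
  module

include hζp hηp hJ hζ hη hζ1 in
lemma card_closure (hm : 1 ≤ m) (hfull : η ^ m • qp J = ζ • qp J) {w : List (Ln K m)}
    (hw : w ∈ Fr K m) :
    Nat.card (Subgroup.closure {y | ∃ u v, w = u ++ v ∧ y = eJ ζ η J u}) = p ^ (m - 1) := by
  obtain ⟨hl, ho⟩ := (mem_Fr K).1 hw
  let Φ := Ph hζp hηp hJ (lt_orth hl ho) (sum_lt hw hl) hζ hη
  have hcard := card_range hζp hηp hJ (lt_orth hl ho) (sum_lt hw hl) hζ hη hζ1 hm hfull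
  have heq : Subgroup.closure {y | ∃ u v, w = u ++ v ∧ y = eJ ζ η J u} = Φ.range := by
    apply le_antisymm
    · rw [Subgroup.closure_le]
      rintro y ⟨u, v, huv, rfl⟩
      have hu : u = w.take u.length := by rw [huv]; simp
      have hul : u.length ≤ m := by
        have h5 := congrArg List.length huv
        rw [List.length_append, hl] at h5
        omega
      rw [hu, eJ_take hζp hηp hJ hζ hη hw hl ho _ hul]
      exact ⟨_, rfl⟩
    · rintro y ⟨a, rfl⟩
      let C := Subgroup.closure {y | ∃ u v, w = u ++ v ∧ y = eJ ζ η J u}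
      have htake : ∀ k, k ≤ m → Φ (Multiplicative.ofAdd
          (fun i : Fin m => if i.val < k then (1 : ZMod p) else 0)) ∈ C := by
        intro k hk
        have := eJ_take (J := J) hζp hηp hJ hζ hη hw hl ho k hk
        rw [← this]
        exact Subgroup.subset_closure ⟨w.take k, w.drop k, (List.take_append_drop k w).symm, rfl⟩
      let T : Subgroup (Multiplicative (Fin m → ZMod p)) := C.comap Φ
      have hsing : ∀ i : Fin m, Multiplicative.ofAdd (Pi.single i (1 : ZMod p)) ∈ T := by
        intro i
        have h1 : Multiplicative.ofAdd (fun j : Fin m => if j.val < i.val + 1 then (1 : ZMod p) else 0) =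
            Multiplicative.ofAdd (fun j : Fin m => if j.val < i.val then (1 : ZMod p) else 0) *
              Multiplicative.ofAdd (Pi.single i (1 : ZMod p)) := by
          rw [← ofAdd_add]
          congr 1
          funext j
          by_cases h : j = i
          · subst h; simp
          · have h2 : j.val ≠ i.val := fun h' => h (Fin.ext h')
            by_cases h3 : j.val < i.val
            · have h4 : j.val < i.val + 1 := by omega
              show (if j.val < i.val + 1 then (1 : ZMod p) else 0) =
                (if j.val < i.val then (1 : ZMod p) else 0) + (Pi.single i (1 : ZMod p) : Fin m → ZMod p) j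
              rw [if_pos h4, if_pos h3, Pi.single_eq_of_ne h, add_zero]
            · have h4 : ¬ j.val < i.val + 1 := by omega
              show (if j.val < i.val + 1 then (1 : ZMod p) else 0) =
                (if j.val < i.val then (1 : ZMod p) else 0) + (Pi.single i (1 : ZMod p) : Fin m → ZMod p) j
              rw [if_neg h4, if_neg h3, Pi.single_eq_of_ne h, add_zero]
        have h2 : Multiplicative.ofAdd (fun j : Fin m => if j.val < i.val then (1 : ZMod p) else 0) ∈ T :=
          htake i.val i.2.le
        have h3 : Multiplicative.ofAdd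
            (fun j : Fin m => if j.val < i.val + 1 then (1 : ZMod p) else 0) ∈ T :=
          htake (i.val + 1) i.2
        rw [h1] at h3
        exact (Subgroup.mul_mem_cancel_left T h2).1 h3
      have hall : ∀ a : Fin m → ZMod p, Multiplicative.ofAdd a ∈ T := by
        intro a
        have h1 : a = ∑ i, (a i).val • Pi.single i (1 : ZMod p) := by
          conv_lhs => rw [← Finset.univ_sum_single a]
          refine Finset.sum_congr rfl (fun i _ => ?_)
          rw [← Pi.single_smul, nsmul_eq_mul, mul_one, ZMod.natCast_zmod_val]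
        rw [h1, ofAdd_sum]
        refine Subgroup.prod_mem T (fun i _ => ?_)
        rw [ofAdd_nsmul]
        exact T.pow_mem (hsing i) _
      exact hall a.toAdd
  rw [heq]
  exact hcard

end

end

end Vale.Agent.P240.R2.H402
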