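import Vale.Agent.P240.R2.H402.Clo

/-!
P240, Aschbacher-Smith unitary conjecture, row A2 (helper402): `Comb` for the elements `eJ ζ η J w`.
-/

set_option autoImplicit false
set_option linter.all false

namespace Vale.Agent.P240.R2.H402

open Finset Matrix
open Vale.Agent.P240.R2.AS
open scoped Classical

universe u

noncomputable section

variable {K : Type u} [Field K] [Fintype K] [StarRing K] {m N : ℕ}

lemma sup_zpowers_mul {G : Type*} [Group G] (H : Subgroup G) {x y : G} (hx : x ∈ H) :
    H ⊔ Subgroup.zpowers (x * y) = H ⊔ Subgroup.zpowers y := by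
  apply le_antisymm
  · refine sup_le le_sup_left ?_
    rw [Subgroup.zpowers_le]
    exact Subgroup.mul_mem _ ((le_sup_left : H ≤ _) hx)
      ((le_sup_right : Subgroup.zpowers y ≤ _) (Subgroup.mem_zpowers y))
  · refine sup_le le_sup_left ?_
    rw [Subgroup.zpowers_le]
    have h1 : x⁻¹ * (x * y) ∈ H ⊔ Subgroup.zpowers (x * y) :=
      Subgroup.mul_mem _ ((le_sup_left : H ≤ _) (H.inv_mem hx))
        ((le_sup_right : Subgroup.zpowers (x * y) ≤ _) (Subgroup.mem_zpowers _))
    simpa using h1

/-- the unitary matrices which are scalar on two given spaces -/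
def NU {U V : Matrix (Fin N) (Fin N) K} (hU : U ≠ 0) (hV : V ≠ 0) : Subgroup (GU K N) where
  carrier := {X | ∃ α β : K, X.1 * U = α • U ∧ X.1 * V = β • V}
  one_mem' := ⟨1, 1, by simp, by simp⟩
  mul_mem' := by
    rintro X Y ⟨α, β, h1, h2⟩ ⟨α', β', h1', h2'⟩
    refine ⟨α' * α, β' * β, ?_, ?_⟩
    · show X.1 * Y.1 * U = _
      rw [mul_assoc, h1', mul_smul_comm, h1, smul_smul]
    · show X.1 * Y.1 * V = _
      rw [mul_assoc, h2', mul_smul_comm, h2, smul_smul]
  inv_mem' := by
    rintro X ⟨α, β, h1, h2⟩
    have key : ∀ {W : Matrix (Fin N) (Fin N) K} {γ : K}, W ≠ 0 → X.1 * W = γ • W →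
        (X⁻¹).1 * W = γ⁻¹ • W := by
      intro W γ hW h
      have h3 : (X⁻¹).1 * X.1 = 1 := congrArg Subtype.val (inv_mul_cancel X)
      have h4 : W = γ • ((X⁻¹).1 * W) := by
        calc W = ((X⁻¹).1 * X.1) * W := by rw [h3, one_mul]
          _ = γ • ((X⁻¹).1 * W) := by rw [mul_assoc, h, mul_smul_comm]
      have hγ : γ ≠ 0 := by
        rintro rfl
        rw [zero_smul] at h4
        exact hW h4
      conv_rhs => rw [h4]
      rw [smul_smul, inv_mul_cancel₀ hγ, one_smul]
    exact ⟨α⁻¹, β⁻¹, key hU h1, key hV h2⟩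

section

variable {p : ℕ} [Fact p.Prime] {ζ η : K} {J : Matrix (Fin N) (Fin m) K} (hJ : Jᴴ * J = 1)
  (hζ : ζ * star ζ = 1) (hη : η * star η = 1) (hζ1 : ζ ≠ 1)
  {e : List (Ln K m) → PGU K N} (he : ∀ w, Orth w → e w = eJ ζ η J w)

include hJ hζ hη he in
lemma e_app {u v : List (Ln K m)} (h : Orth (u ++ v)) : e (u ++ v) = e u * e v := by
  obtain ⟨hu, hv, -⟩ := orth_app.1 h
  rw [he _ h, he _ hu, he _ hv, eJ, EJ_app hJ hζ hη h]
  rfl

include hJ hζ hη he in
lemma e_comm {u v : List (Ln K m)} (h : Orth (u ++ v)) : e u * e v = e v * e u := by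
  obtain ⟨hu, hv, -⟩ := orth_app.1 h
  rw [he _ hu, he _ hv]
  exact congrArg QuotientGroup.mk (EJ_comm hJ hζ hη h)

include hJ hζ hη he in
lemma e_mem_SS {A W : List (Ln K m)} (hA : Orth A) (h : ∀ x ∈ A, x ∈ W) : e A ∈ SS e W := by
  induction A with
  | nil =>
    have : e [] = 1 := by
      rw [he _ (by simp [Orth]), eJ, EJ_nil hJ hζ hη]
      rfl
    rw [this]; exact Subgroup.one_mem _
  | cons a A ih =>
    have h1 : e (a :: A) = e [a] * e A := e_app hJ hζ hη he (u := [a]) (v := A) hA
    rw [h1]
    refine Subgroup.mul_mem _ (Subgroup.subset_closure ⟨a, h a (by simp), rfl⟩)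
      (ih (List.pairwise_cons.1 hA).2 (fun x hx => h x (by simp [hx])))

lemma sm_ne {u : List (Ln K m)} (hu : Orth u) (hne : u ≠ []) : sm u ≠ 0 := by
  cases u with
  | nil => exact absurd rfl hne
  | cons a u =>
    intro h
    have := mem_mul_sm hu (P := a) (by simp)
    rw [h, mul_zero] at this
    exact ln_ne a this.symm

include hJ hζ hη hζ1 in
lemma scal_or {u : List (Ln K m)} (hu : Orth u) (hne : u ≠ []) {l : Ln K m} {X : GU K N} {t α : K}
    (hX : X.1 = t • (EJ ζ η J [l]).1) (hα : X.1 * up J (sm u) = α • up J (sm u)) :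
    l.1 * sm u = 0 ∨ l.1 * sm u = sm u := by
  have hU0 : up J (sm u) ≠ 0 := fun h => sm_ne hu hne (up_inj hJ h)
  have h1 : X.1 * up J (sm u) = t • (up J (sm u) + (ζ - 1) • up J (l.1 * sm u)) := by
    rw [hX, EJ_val hJ hζ hη (by simp [Orth]), smul_mul_assoc, add_mul, add_mul, one_mul,
      smul_mul_assoc, smul_mul_assoc, qp_up hJ, up_mul hJ, smul_zero, add_zero, sm_cons, sm_nil,
      add_zero]
  have ht : t ≠ 0 := by
    rintro rfl
    rw [zero_smul] at h1
    have h2 : (X⁻¹).1 * X.1 = 1 := congrArg Subtype.val (inv_mul_cancel X)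
    apply hU0
    calc up J (sm u) = ((X⁻¹).1 * X.1) * up J (sm u) := by rw [h2, one_mul]
      _ = 0 := by rw [mul_assoc, h1, mul_zero]
  have h2 : up J (sm u + (ζ - 1) • (l.1 * sm u)) = up J ((t⁻¹ * α) • sm u) := by
    have h3 : ∀ (c : K) (A : Matrix (Fin m) (Fin m) K), up J (c • A) = c • up J A := by
      intro c A; simp [up]
    rw [up_add, h3, h3, mul_smul, ← hα, h1, smul_smul, inv_mul_cancel₀ ht, one_smul]
  have h3 : sm u + (ζ - 1) • (l.1 * sm u) = (t⁻¹ * α) • sm u := by
    rw [← sub_eq_zero]
    apply up_inj hJ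
    rw [sub_eq_add_neg, up_add, h2, ← up_add, add_neg_cancel, up_zero]
  set γ := t⁻¹ * α
  have h4 : (ζ - γ) • (l.1 * sm u) = 0 := by
    have h5 := congrArg (fun A => l.1 * A) h3
    simp only [mul_add, mul_smul_comm, ← mul_assoc, ln_idem] at h5
    rw [sub_smul, ← h5]
    module
  rcases smul_eq_zero.1 h4 with h5 | h5
  · right
    have h6 : ζ = γ := sub_eq_zero.1 h5
    rw [← h6] at h3
    have h7 : (ζ - 1) • (l.1 * sm u) = (ζ - 1) • sm u := by
      have : (ζ - 1) • (l.1 * sm u) = ζ • sm u - sm u := by rw [← h3]; abel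
      rw [this]; module
    have h8 := congrArg (fun A => (ζ - 1)⁻¹ • A) h7
    simpa [smul_smul, inv_mul_cancel₀ (sub_ne_zero.2 hζ1)] using h8
  · left; exact h5

include hJ hζ hη hζ1 he in
theorem comb_gen (hζp : ζ ^ p = 1) (hηp : η ^ p = 1) (hm : 1 ≤ m)
    (hfull : η ^ m • qp J = ζ • qp J) : Comb p m (Fr K m) e := by
  have hfr : ∀ w ∈ Fr K m, w.length = m ∧ Orth w := fun w hw => (mem_Fr K).1 hw
  have hone : ∀ w ∈ Fr K m, e w = 1 := by
    intro w hw
    obtain ⟨hl, ho⟩ := hfr w hw
    rw [he w ho]
    refine (QuotientGroup.eq_one_iff _).2 (scalar_center (t := ζ) ?_)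
    rw [EJ_val hJ hζ hη ho, sm_full hw, hl, up_one, sub_smul (η ^ m) 1 (qp J), hfull]
    module
  refine ⟨fun w hw => (hfr w hw).1, ?_, ?_, ?_, ?_, ?_, ?_, hone, ?_, ?_⟩
  · intro w hw
    obtain ⟨hl, ho⟩ := hfr w hw
    refine List.Pairwise.imp ?_ ho
    rintro P Q h rfl
    rw [ln_idem] at h
    exact ln_ne P h
  · intro w hw w' hp
    obtain ⟨hl, ho⟩ := hfr w hw
    exact (mem_Fr K).2 ⟨by rw [← hp.length_eq, hl], orth_perm hp ho⟩
  · intro u a b c d v w h1 h2
    have ho1 := (hfr _ h1).2
    have ho2 := (hfr _ h2).2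
    have hs1 := sm_full h1
    have hs2 := sm_full h2
    have hsub : ∀ a b : Ln K m, (u ++ a :: b :: v).Sublist (u ++ a :: b :: (v ++ w)) := by
      intro a b
      refine List.Sublist.append_left ?_ u
      exact ((List.sublist_append_left v w).cons_cons b).cons_cons a
    have hA : Orth (u ++ a :: b :: v) := ho1.sublist (hsub a b)
    have hB : Orth (u ++ c :: d :: v) := ho2.sublist (hsub c d)
    rw [he _ hA, he _ hB]
    refine congrArg QuotientGroup.mk (EJ_congr hJ hζ hη hA hB ?_ (by simp))
    simp only [sm_app, sm_cons] at hs1 hs2 ⊢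
    have : a.1 + b.1 = c.1 + d.1 := by
      have h3 := hs1.trans hs2.symm
      have h4 : (a.1 + b.1) + (sm u + (sm v + sm w)) = (c.1 + d.1) + (sm u + (sm v + sm w)) := by
        calc _ = sm u + (a.1 + (b.1 + (sm v + sm w))) := by abel
          _ = sm u + (c.1 + (d.1 + (sm v + sm w))) := h3
          _ = _ := by abel
      exact add_right_cancel h4
    calc sm u + (a.1 + (b.1 + sm v)) = (a.1 + b.1) + (sm u + sm v) := by abel
      _ = (c.1 + d.1) + (sm u + sm v) := by rw [this]
      _ = _ := by abel
  · intro u v w h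
    have ho := (hfr _ h).2
    have ho' : Orth (u ++ v) := by
      refine List.Pairwise.sublist ?_ ho
      exact List.Sublist.append_left (List.sublist_append_left v w) u
    rw [e_app hJ hζ hη he ho', mul_assoc, ← e_comm hJ hζ hη he ho']
  · intro u v h
    have ho : Orth u := List.Pairwise.sublist (List.sublist_append_left u v) (hfr _ h).2
    rw [he u ho]
    show (QuotientGroup.mk (EJ ζ η J u) : PGU K N) ^ p = 1
    rw [← QuotientGroup.mk_pow]
    have : (EJ ζ η J u) ^ p = 1 := by
      apply Subtype.ext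
      rw [EJ_pow hJ hζ hη ho, hζp, ← pow_mul, mul_comm, pow_mul, hηp]
      simp
    rw [this]; rfl
  · rw [he _ (by simp [Orth]), eJ, EJ_nil hJ hζ hη]
    rfl
  · intro w hw
    have hset : {y | ∃ u v, w = u ++ v ∧ y = e u} = {y | ∃ u v, w = u ++ v ∧ y = eJ ζ η J u} := by
      ext y
      constructor
      · rintro ⟨u, v, h, rfl⟩
        refine ⟨u, v, h, he u ?_⟩
        have ho := (hfr w hw).2
        rw [h] at ho
        exact List.Pairwise.sublist (List.sublist_append_left u v) ho
      · rintro ⟨u, v, h, rfl⟩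
        refine ⟨u, v, h, (he u ?_).symm⟩
        have ho := (hfr w hw).2
        rw [h] at ho
        exact List.Pairwise.sublist (List.sublist_append_left u v) ho
    rw [hset]
    exact card_closure hζp hηp hJ hζ hη hζ1 hm hfull hw
  · intro A u v B l g h1 h2 hu hv
    have ho1 := (hfr _ h1).2
    have ho2 := (hfr _ h2).2
    have hoAu : Orth (A ++ u) := by
      refine List.Pairwise.sublist ?_ ho1
      refine List.Sublist.trans ?_ (List.sublist_append_left _ B)
      exact List.Sublist.append_left (List.sublist_append_left u v) A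
    have hoA : Orth A := List.Pairwise.sublist (List.sublist_append_left A u) hoAu
    have hoU : Orth u := List.Pairwise.sublist (List.sublist_append_right A u) hoAu
    have hoV : Orth v := by
      refine List.Pairwise.sublist ?_ ho1
      refine List.Sublist.trans ?_ (List.sublist_append_left _ B)
      exact (List.sublist_append_right u v).trans (List.sublist_append_right A _)
    have hoB : Orth B := List.Pairwise.sublist (List.sublist_append_right _ B) ho1
    constructor
    · intro heq
      have hU0 : up J (sm u) ≠ 0 := fun h => sm_ne hoU hu (up_inj hJ h)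
      have hV0 : up J (sm v) ≠ 0 := fun h => sm_ne hoV hv (up_inj hJ h)
      let NN : Subgroup (PGU K N) := (NU hU0 hV0).map (QuotientGroup.mk' _)
      have hmemNN : ∀ {w : List (Ln K m)} (hw : Orth w) (c d : K), sm w * sm u = c • sm u →
          sm w * sm v = d • sm v → e w ∈ NN := by
        intro w hw c d hc hd
        rw [he w hw]
        refine ⟨EJ ζ η J w, ?_, rfl⟩
        have h3 : ∀ (c : K) (A : Matrix (Fin m) (Fin m) K), up J (c • A) = c • up J A := by
          intro c A; simp [up]
        refine ⟨1 + (ζ - 1) * c, 1 + (ζ - 1) * d, ?_, ?_⟩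
        · rw [EJ_val hJ hζ hη hw, add_mul, add_mul, one_mul, smul_mul_assoc, smul_mul_assoc,
            qp_up hJ, up_mul hJ, hc, h3]
          module
        · rw [EJ_val hJ hζ hη hw, add_mul, add_mul, one_mul, smul_mul_assoc, smul_mul_assoc,
            qp_up hJ, up_mul hJ, hd, h3]
          module
      have hpw : ∀ x ∈ A ++ B, ∀ y ∈ u ++ v, x.1 * y.1 = 0 := by
        have h3 : Orth ((A ++ B) ++ (u ++ v)) := by
          refine orth_perm ?_ ho1
          rw [List.append_assoc A (u ++ v) B, List.append_assoc A B (u ++ v)]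
          exact List.Perm.append_left A List.perm_append_comm
        exact (orth_app.1 h3).2.2
      have hle : SS e (A ++ B) ⊔ Subgroup.zpowers (e (A ++ u)) ≤ NN := by
        refine sup_le ?_ ?_
        · unfold SS
          rw [Subgroup.closure_le]
          rintro y ⟨x, hx, rfl⟩
          refine hmemNN (by simp [Orth]) 0 0 ?_ ?_
          · rw [sm_cons, sm_nil, add_zero, zero_smul]
            exact mul_sm (fun b hb => hpw x hx b (by simp [hb]))
          · rw [sm_cons, sm_nil, add_zero, zero_smul]
            exact mul_sm (fun b hb => hpw x hx b (by simp [hb]))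
        · rw [Subgroup.zpowers_le]
          refine hmemNN hoAu 1 0 ?_ ?_
          · rw [sm_app, add_mul, sm_idem hoU, one_smul, sm_mul_sm, zero_add]
            intro a ha b hb
            exact hpw a (by simp [ha]) b (by simp [hb])
          · rw [sm_app, add_mul, zero_smul, sm_mul_sm, zero_add]
            · have h3 : Orth (u ++ v) := by
                refine List.Pairwise.sublist ?_ ho1
                exact (List.sublist_append_right A _).trans (List.sublist_append_left _ B)
              exact sm_mul_sm (orth_app.1 h3).2.2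
            · intro a ha b hb
              exact hpw a (by simp [ha]) b (by simp [hb])
      have hl : e [l] ∈ NN := by
        apply hle
        rw [heq]
        exact (le_sup_right : Subgroup.zpowers (e [l]) ≤ _) (Subgroup.mem_zpowers _)
      rw [he [l] (by simp [Orth])] at hl
      obtain ⟨X, ⟨α, β, hα, hβ⟩, hX⟩ := hl
      obtain ⟨t, ht⟩ := mk_eq hζ hζ1 hX
      have hcase : ∀ {z : List (Ln K m)}, Orth z → z ≠ [] → l.1 * sm z = sm z → z = [l] := by
        intro z hz hne h
        exact word_eq hz hne (ln_le l (sm_star z) (sm_idem hz) (sm_ne hz hne) h)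
      rcases scal_or hJ hζ hη hζ1 hoU hu ht hα with h3 | h3
      · rcases scal_or hJ hζ hη hζ1 hoV hv ht hβ with h4 | h4
        · exfalso
          have hs1 := sm_full h1
          have hs2 := sm_full h2
          simp only [sm_app, sm_cons] at hs1 hs2
          have h5 : sm u + sm v = l.1 + sm g := by
            have h6 := hs1.trans hs2.symm
            have h7 := add_right_cancel h6
            exact add_left_cancel h7
          have h6 : l.1 * (l.1 + sm g) = 0 := by
            rw [← h5, mul_add, h3, h4, add_zero]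
          have h7 : Orth (l :: g) := by
            refine List.Pairwise.sublist ?_ ho2
            exact (List.sublist_append_right A _).trans (List.sublist_append_left _ B)
          have h8 : l.1 * sm g = 0 := mul_sm (List.pairwise_cons.1 h7).1
          rw [mul_add, h8, add_zero, ln_idem] at h6
          exact ln_ne l h6
        · exact Or.inr (hcase hoV hv h4)
      · exact Or.inl (hcase hoU hu h3)
    · rintro (rfl | rfl)
      · rw [e_app hJ hζ hη he hoAu]
        exact sup_zpowers_mul _ (e_mem_SS hJ hζ hη he hoA (fun x hx => by simp [hx]))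
      · have h3 : Orth ((A ++ u) ++ ([l] ++ B)) := by
          have : A ++ u ++ ([l] ++ B) = A ++ (u ++ [l]) ++ B := by simp
          rw [this]; exact ho1
        have h4 : e ((A ++ u) ++ ([l] ++ B)) = 1 := by
          have : A ++ u ++ ([l] ++ B) = A ++ (u ++ [l]) ++ B := by simp
          rw [this]; exact hone _ h1
        have hlB : Orth ([l] ++ B) := (orth_app.1 h3).2.1
        rw [e_app hJ hζ hη he h3, e_app hJ hζ hη he hlB] at h4
        have h5 : e (A ++ u) = (e B)⁻¹ * (e [l])⁻¹ := by
          rw [← _root_.mul_inv_rev]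
          exact eq_inv_of_mul_eq_one_left h4
        rw [h5, sup_zpowers_mul _ ((SS e (A ++ B)).inv_mem
          (e_mem_SS hJ hζ hη he hoB (fun x hx => by simp [hx]))), Subgroup.zpowers_inv]

end

end

end Vale.Agent.P240.R2.H402
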