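import Vale.Agent.P240.R2.H402.Let

/-!
P240, Aschbacher-Smith unitary conjecture, row A2 (helper402): for an isometry `J : K ^ m → K ^ N`,
the elements `eJ ζ η J w` = class of `ζ` on `J W`, `η ^ dim W` on the complement of `J (K ^ m)`, `1` on
the rest (`W` = space of the word `w`).
-/

set_option autoImplicit false
set_option linter.all false

namespace Vale.Agent.P240.R2.H402

open Finset Matrix
open Vale.Agent.P240.R2.AS
open scoped Classical

universe u

variable {K : Type u} [Field K] [Fintype K] [StarRing K] {m N : ℕ}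

section up

/-- transport by `J` -/
def up (J : Matrix (Fin N) (Fin m) K) (A : Matrix (Fin m) (Fin m) K) : Matrix (Fin N) (Fin N) K :=
  J * A * Jᴴ

/-- the projection onto the complement of the image of `J` -/
def qp (J : Matrix (Fin N) (Fin m) K) : Matrix (Fin N) (Fin N) K := 1 - J * Jᴴ

variable {J : Matrix (Fin N) (Fin m) K}

lemma up_zero : up J 0 = 0 := by simp [up]

lemma up_add (A B : Matrix (Fin m) (Fin m) K) : up J (A + B) = up J A + up J B := by
  simp [up, Matrix.mul_add, Matrix.add_mul]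

lemma up_sum {ι : Type*} (s : Finset ι) (A : ι → Matrix (Fin m) (Fin m) K) :
    up J (∑ i ∈ s, A i) = ∑ i ∈ s, up J (A i) := by
  simp [up, Matrix.mul_sum, Matrix.sum_mul]

lemma up_one : up J 1 = 1 - qp J := by simp [up, qp]

lemma up_star (A : Matrix (Fin m) (Fin m) K) : star (up J A) = up J (star A) := by
  simp [up, star_eq_conjTranspose, Matrix.conjTranspose_mul, Matrix.mul_assoc]

variable (hJ : Jᴴ * J = 1)
include hJ

lemma up_mul (A B : Matrix (Fin m) (Fin m) K) : up J A * up J B = up J (A * B) := by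
  calc J * A * Jᴴ * (J * B * Jᴴ) = J * A * (Jᴴ * J) * B * Jᴴ := by simp only [Matrix.mul_assoc]
    _ = J * (A * B) * Jᴴ := by rw [hJ]; simp only [Matrix.mul_assoc, Matrix.one_mul]

lemma up_inj {A : Matrix (Fin m) (Fin m) K} (h : up J A = 0) : A = 0 := by
  calc A = (Jᴴ * J) * A * (Jᴴ * J) := by rw [hJ]; simp
    _ = Jᴴ * (J * A * Jᴴ) * J := by simp only [Matrix.mul_assoc]
    _ = 0 := by
      have : J * A * Jᴴ = 0 := h
      rw [this]; simp

lemma qp_up (A : Matrix (Fin m) (Fin m) K) : qp J * up J A = 0 := by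
  have : J * Jᴴ * (J * A * Jᴴ) = J * A * Jᴴ := by
    calc J * Jᴴ * (J * A * Jᴴ) = J * (Jᴴ * J) * A * Jᴴ := by simp only [Matrix.mul_assoc]
      _ = _ := by rw [hJ]; simp
  rw [qp, Matrix.sub_mul, Matrix.one_mul, up, this, sub_self]

lemma up_qp (A : Matrix (Fin m) (Fin m) K) : up J A * qp J = 0 := by
  have : J * A * Jᴴ * (J * Jᴴ) = J * A * Jᴴ := by
    calc J * A * Jᴴ * (J * Jᴴ) = J * A * (Jᴴ * J) * Jᴴ := by simp only [Matrix.mul_assoc]
      _ = _ := by rw [hJ]; simp
  rw [qp, Matrix.mul_sub, Matrix.mul_one, up, this, sub_self]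

omit hJ in
lemma qp_star : star (qp J) = qp J := by
  simp [qp, star_eq_conjTranspose, Matrix.conjTranspose_mul]

lemma qp_idem : qp J * qp J = qp J := by
  have : J * Jᴴ * (J * Jᴴ) = J * Jᴴ := by
    calc J * Jᴴ * (J * Jᴴ) = J * (Jᴴ * J) * Jᴴ := by simp only [Matrix.mul_assoc]
      _ = _ := by rw [hJ]; simp
  rw [qp, Matrix.sub_mul, Matrix.mul_sub, Matrix.mul_sub, this]
  simp

end up

/-- the lift of the element to the unitary group -/
noncomputable def EJ (ζ η : K) (J : Matrix (Fin N) (Fin m) K) (w : List (Ln K m)) : GU K N :=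
  eU ζ (up J (sm w)) * eU (η ^ w.length) (qp J)

/-- its class -/
noncomputable def eJ (ζ η : K) (J : Matrix (Fin N) (Fin m) K) (w : List (Ln K m)) : PGU K N :=
  QuotientGroup.mk (EJ ζ η J w)

lemma eU_val {ζ : K} {P : Matrix (Fin N) (Fin N) K} (h1 : star P = P) (h2 : P * P = P)
    (h3 : ζ * star ζ = 1) : (eU ζ P).1 = 1 + (ζ - 1) • P := by
  rw [eU, dif_pos ⟨h1, h2, h3⟩]

section EJ

variable {J : Matrix (Fin N) (Fin m) K} {ζ η : K} (hJ : Jᴴ * J = 1) (hζ : ζ * star ζ = 1)
  (hη : η * star η = 1)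

omit [Fintype K] in
lemma pow_star {η : K} (hη : η * star η = 1) (k : ℕ) : η ^ k * star (η ^ k) = 1 := by
  rw [star_pow, ← mul_pow, hη, one_pow]

include hJ hζ hη

lemma EJ_val {w : List (Ln K m)} (hw : Orth w) : (EJ ζ η J w).1 =
    1 + (ζ - 1) • up J (sm w) + (η ^ w.length - 1) • qp J := by
  have h1 : (eU ζ (up J (sm w)) : GU K N).1 = 1 + (ζ - 1) • up J (sm w) :=
    eU_val (by rw [up_star, sm_star]) (by rw [up_mul hJ, sm_idem hw]) hζ
  have h2 : (eU (η ^ w.length) (qp J) : GU K N).1 = 1 + (η ^ w.length - 1) • qp J :=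
    eU_val qp_star (qp_idem hJ) (pow_star hη _)
  show (eU ζ (up J (sm w)) : GU K N).1 * (eU (η ^ w.length) (qp J) : GU K N).1 = _
  rw [h1, h2, add_mul, mul_add, mul_add, smul_mul_smul_comm, up_qp hJ]
  simp only [smul_zero, one_mul, mul_one, add_zero]
  abel

lemma EJ_app {u v : List (Ln K m)} (h : Orth (u ++ v)) :
    EJ ζ η J (u ++ v) = EJ ζ η J u * EJ ζ η J v := by
  obtain ⟨hu, hv, huv⟩ := orth_app.1 h
  apply Subtype.ext
  show _ = (EJ ζ η J u).1 * (EJ ζ η J v).1
  rw [EJ_val hJ hζ hη h, EJ_val hJ hζ hη hu, EJ_val hJ hζ hη hv, sm_app, up_add, List.length_append,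
    pow_add]
  have h1 : up J (sm u) * up J (sm v) = 0 := by rw [up_mul hJ, sm_mul_sm huv, up_zero]
  simp only [add_mul, mul_add, one_mul, mul_one, smul_mul_smul_comm, h1, up_qp hJ, qp_up hJ,
    qp_idem hJ, smul_zero, add_zero, zero_add]
  module

lemma EJ_comm {u v : List (Ln K m)} (h : Orth (u ++ v)) :
    EJ ζ η J u * EJ ζ η J v = EJ ζ η J v * EJ ζ η J u := by
  have h' : Orth (v ++ u) := orth_perm List.perm_append_comm h
  rw [← EJ_app hJ hζ hη h, ← EJ_app hJ hζ hη h']
  apply Subtype.ext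
  rw [EJ_val hJ hζ hη h, EJ_val hJ hζ hη h', sm_app, sm_app, add_comm, List.length_append,
    List.length_append, add_comm u.length, add_comm (sm u)]
  abel

lemma EJ_nil : EJ ζ η J [] = 1 := by
  apply Subtype.ext
  rw [EJ_val hJ hζ hη (by simp [Orth]), sm_nil, up_zero]
  simp

lemma EJ_congr {u v : List (Ln K m)} (hu : Orth u) (hv : Orth v) (hs : sm u = sm v)
    (hl : u.length = v.length) : EJ ζ η J u = EJ ζ η J v := by
  apply Subtype.ext
  rw [EJ_val hJ hζ hη hu, EJ_val hJ hζ hη hv, hs, hl]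

lemma EJ_pow {u : List (Ln K m)} (hu : Orth u) (k : ℕ) : ((EJ ζ η J u) ^ k).1 =
    1 + (ζ ^ k - 1) • up J (sm u) + ((η ^ u.length) ^ k - 1) • qp J := by
  induction k with
  | zero => simp
  | succ k ih =>
    rw [pow_succ]
    show ((EJ ζ η J u) ^ k).1 * (EJ ζ η J u).1 = _
    rw [ih, EJ_val hJ hζ hη hu]
    have h1 : up J (sm u) * up J (sm u) = up J (sm u) := by rw [up_mul hJ, sm_idem hu]
    simp only [add_mul, mul_add, one_mul, mul_one, smul_mul_smul_comm, h1, up_qp hJ, qp_up hJ,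
      qp_idem hJ, smul_zero, add_zero, zero_add, pow_succ]
    module

end EJ

end Vale.Agent.P240.R2.H402
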