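import Vale.Agent.P240.R2.AS.Defs

/-!
P240, Aschbacher-Smith unitary conjecture, row A2 (helper402): elementary facts on the letters `Ln K m`
(rank one orthogonal projections) and on the sums of words of pairwise orthogonal letters.
-/

set_option autoImplicit false
set_option linter.all false

namespace Vale.Agent.P240.R2.H402

open Finset Matrix
open Vale.Agent.P240.R2.AS
open scoped Classical

universe u

variable {K : Type u} [Field K] [Fintype K] [StarRing K] {m : ℕ}

lemma ln_star (P : Ln K m) : star P.1 = P.1 := by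
  obtain ⟨P, x, hx, rfl⟩ := P
  show star (vecMulVec x (star x)) = vecMulVec x (star x)
  rw [star_eq_conjTranspose, conjTranspose_vecMulVec, star_star]

/-- compression by a letter -/
lemma ln_comp (P : Ln K m) (A : Matrix (Fin m) (Fin m) K) : ∃ t : K, P.1 * A * P.1 = t • P.1 := by
  obtain ⟨P, x, hx, rfl⟩ := P
  refine ⟨star x ⬝ᵥ (A *ᵥ x), ?_⟩
  show vecMulVec x (star x) * A * vecMulVec x (star x) = _ • vecMulVec x (star x)
  rw [Matrix.mul_assoc, mul_vecMulVec, vecMulVec_mul_vecMulVec, vecMulVec_smul]

lemma ln_idem (P : Ln K m) : P.1 * P.1 = P.1 := by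
  obtain ⟨P, x, hx, rfl⟩ := P
  show vecMulVec x (star x) * vecMulVec x (star x) = vecMulVec x (star x)
  rw [vecMulVec_mul_vecMulVec, hx, one_smul]

lemma ln_ne (P : Ln K m) : P.1 ≠ 0 := by
  obtain ⟨P, x, hx, rfl⟩ := P
  intro h
  have h' : vecMulVec x (star x) = 0 := h
  have : vecMulVec x (star x) *ᵥ x = 0 := by rw [h', zero_mulVec]
  rw [vecMulVec_mulVec, hx] at this
  simp at this
  rw [this] at hx
  simp at hx

/-- a nonzero projection below a letter is the letter -/
lemma ln_le (P : Ln K m) {A : Matrix (Fin m) (Fin m) K} (hs : star A = A) (hi : A * A = A)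
    (h0 : A ≠ 0) (h : P.1 * A = A) : A = P.1 := by
  have h2 : A * P.1 = A := by
    have := congrArg star h
    rwa [star_mul, ln_star, hs] at this
  obtain ⟨t, ht⟩ := ln_comp P A
  rw [h, h2] at ht
  have ht2 : t * t = t := by
    have h3 : (t * t) • P.1 = t • P.1 := by
      calc (t * t) • P.1 = (t • P.1) * (t • P.1) := by
            rw [smul_mul_smul_comm, ln_idem]
        _ = t • P.1 := by rw [← ht, hi]
    have h4 : (t * t - t) • P.1 = 0 := by rw [sub_smul, h3, sub_self]
    rcases smul_eq_zero.1 h4 with h5 | h5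
    · exact sub_eq_zero.1 h5
    · exact absurd h5 (ln_ne P)
  have ht0 : t ≠ 0 := by
    rintro rfl
    exact h0 (by rw [ht, zero_smul])
  have ht1 : t = 1 := mul_left_cancel₀ ht0 (by rw [ht2, mul_one])
  rw [ht, ht1, one_smul]

lemma ln_orth_symm {P Q : Ln K m} (h : P.1 * Q.1 = 0) : Q.1 * P.1 = 0 := by
  have := congrArg star h
  rwa [star_mul, ln_star, ln_star, star_zero] at this

lemma sm_nil : sm ([] : List (Ln K m)) = 0 := rfl

lemma sm_cons (P : Ln K m) (w : List (Ln K m)) : sm (P :: w) = P.1 + sm w := by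
  simp [sm]

lemma sm_app (u v : List (Ln K m)) : sm (u ++ v) = sm u + sm v := by
  simp [sm]

lemma sm_star (w : List (Ln K m)) : star (sm w) = sm w := by
  induction w with
  | nil => simp [sm_nil]
  | cons a w ih => rw [sm_cons, star_add, ih, ln_star]

lemma orth_app {u v : List (Ln K m)} : Orth (u ++ v) ↔ Orth u ∧ Orth v ∧ ∀ a ∈ u, ∀ b ∈ v, a.1 * b.1 = 0 := by
  unfold Orth
  exact List.pairwise_append

lemma orth_perm {u v : List (Ln K m)} (h : u.Perm v) (hu : Orth u) : Orth v := by
  unfold Orth at *
  exact h.pairwise hu (fun h => ln_orth_symm h)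

lemma mul_sm {P : Ln K m} {v : List (Ln K m)} (h : ∀ b ∈ v, P.1 * b.1 = 0) : P.1 * sm v = 0 := by
  induction v with
  | nil => simp [sm_nil]
  | cons a w ih =>
    rw [sm_cons, mul_add, h a (by simp), ih (fun b hb => h b (by simp [hb])), add_zero]

lemma sm_mul_sm {u v : List (Ln K m)} (h : ∀ a ∈ u, ∀ b ∈ v, a.1 * b.1 = 0) : sm u * sm v = 0 := by
  induction u with
  | nil => simp [sm_nil]
  | cons a w ih =>
    rw [sm_cons, add_mul, mul_sm (h a (by simp)), ih (fun b hb => h b (by simp [hb])), add_zero]

lemma sm_idem {w : List (Ln K m)} (h : Orth w) : sm w * sm w = sm w := by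
  induction w with
  | nil => simp [sm_nil]
  | cons a w ih =>
    have h1 : Orth w := (List.pairwise_cons.1 h).2
    have h2 : ∀ b ∈ w, a.1 * b.1 = 0 := (List.pairwise_cons.1 h).1
    have h3 : a.1 * sm w = 0 := mul_sm h2
    have h4 : sm w * a.1 = 0 := by
      have := congrArg star h3
      rwa [star_mul, ln_star, sm_star, star_zero] at this
    rw [sm_cons, add_mul, mul_add, mul_add, ln_idem, h3, h4, ih h1, add_zero, zero_add]

lemma mem_mul_sm {w : List (Ln K m)} (h : Orth w) {P : Ln K m} (hP : P ∈ w) : P.1 * sm w = P.1 := by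
  obtain ⟨u, v, rfl⟩ := List.append_of_mem hP
  have h' : Orth (P :: (u ++ v)) := orth_perm (List.perm_middle) h
  have h2 : ∀ b ∈ u ++ v, P.1 * b.1 = 0 := (List.pairwise_cons.1 h').1
  have h3 : sm (u ++ P :: v) = sm (P :: (u ++ v)) := by
    simp only [sm_app, sm_cons]
    abel
  rw [h3, sm_cons, mul_add, ln_idem, mul_sm h2, add_zero]

/-- a word with the same sum as a letter is the letter -/
lemma word_eq {w : List (Ln K m)} (h : Orth w) (hne : w ≠ []) {P : Ln K m} (hP : sm w = P.1) :
    w = [P] := by
  have key : ∀ a ∈ w, a = P := by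
    intro a ha
    have h1 : a.1 * P.1 = a.1 := by rw [← hP, mem_mul_sm h ha]
    have h2 : P.1 * a.1 = a.1 := by
      have := congrArg star h1
      rwa [star_mul, ln_star, ln_star] at this
    exact Subtype.ext (ln_le P (ln_star a) (ln_idem a) (ln_ne a) h2)
  cases w with
  | nil => exact absurd rfl hne
  | cons a w =>
    have ha := key a (by simp)
    subst ha
    cases w with
    | nil => rfl
    | cons b w =>
      have hb := key b (by simp)
      subst hb
      have := (List.pairwise_cons.1 h).1 b (by simp)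
      rw [ln_idem] at this
      exact absurd this (ln_ne b)

/-- frames are complete -/
lemma sm_full {w : List (Ln K m)} (h : w ∈ Fr K m) : sm w = 1 := by
  obtain ⟨hl, ho⟩ := (mem_Fr K).1 h
  choose x hx hx' using fun i : Fin m => (w.get (Fin.cast hl.symm i)).2
  let X : Matrix (Fin m) (Fin m) K := Matrix.of (fun a i => x i a)
  have hsum : ∀ (n : ℕ) (w : List (Ln K m)) (hw : w.length = n),
      sm w = ∑ i : Fin n, (w.get (Fin.cast hw.symm i)).1 := by
    intro n w hw
    subst hw
    show (w.map (fun P => P.1)).sum = _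
    conv_lhs => rw [← List.ofFn_get w, List.map_ofFn, List.sum_ofFn]
    rfl
  have h1 : sm w = X * star X := by
    rw [hsum m w hl]
    ext a b
    rw [Matrix.sum_apply, Matrix.mul_apply]
    refine Finset.sum_congr rfl (fun i _ => ?_)
    rw [hx' i]
    simp [X, vecMulVec_apply, star_apply]
  have h2 : star X * X = 1 := by
    have horth : ∀ i j : Fin m, i ≠ j → star (x i) ⬝ᵥ x j = 0 := by
      intro i j hij
      have hP : (w.get (Fin.cast hl.symm i)).1 * (w.get (Fin.cast hl.symm j)).1 = 0 := by
        rcases lt_or_gt_of_ne hij with hlt | hlt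
        · exact (List.pairwise_iff_get.1 ho) _ _ (by simpa using hlt)
        · exact ln_orth_symm ((List.pairwise_iff_get.1 ho) _ _ (by simpa using hlt))
      rw [hx' i, hx' j, vecMulVec_mul_vecMulVec] at hP
      rw [vecMulVec_smul'] at hP
      have h3 := congrArg (fun A => star (x i) ⬝ᵥ (A *ᵥ x j)) hP
      simp only [zero_mulVec, dotProduct_zero, smul_mulVec, vecMulVec_mulVec, dotProduct_smul, hx, smul_eq_mul, mul_one] at h3
      simpa using h3
    ext i j
    rw [Matrix.mul_apply]
    have : ∑ k, (star X) i k * X k j = star (x i) ⬝ᵥ x j := by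
      simp [X, dotProduct, star_apply]
    rw [this]
    by_cases hij : i = j
    · subst hij
      simp [hx i]
    · rw [horth i j hij, one_apply_ne hij]
  rw [h1]
  exact mul_eq_one_comm.1 h2

end Vale.Agent.P240.R2.H402
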